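import Vale.Agent.Lib.P335_helper12.Bridge
import Vale.Agent.Lib.P335_helper3.GMain

/-!
P335 (Kannan-Tetali-Vempala conjecture, simple undirected form).
The switch chain is rapidly mixing for EVERY degree sequence:
`t_mix(d) ≤ 256 n^6` for all `n ≥ 4` and all `d`.
-/

namespace Vale.Agent.Results.P335.AllDegreeSequences

open P335h14

theorem result : ∀ (n : ℕ), 4 ≤ n → ∀ d : Fin n → ℕ,
    (∀ t : ℕ, 256 * n ^ 6 ≤ t → ∀ G : Omega d, tvDist d t G ≤ 1 / 4) ∧ tmix d ≤ 256 * n ^ 6 := by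
  intro n hn d
  have h : ∀ t : ℕ, 256 * n ^ 6 ≤ t → ∀ G : Omega d, tvDist d t G ≤ 1 / 4 := by
    intro t ht G
    refine mixing_of_g_poincare hn (fun f => P335G.g_poincare f) d t ?_ G
    exact_mod_cast ht
  exact ⟨h, Nat.sInf_le (h _ (le_refl _))⟩

end Vale.Agent.Results.P335.AllDegreeSequences
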