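import Vale.Agent.Lib.P335_helper19.GBridge

/-!
P335 (Kannan-Tetali-Vempala conjecture, simple undirected form): FULL positive answer to Q1.
For every `n ≥ 4` and every degree vector `d` on `n` vertices the switch chain `P_d` satisfies
`max_G ‖P_d^t(G, .) - π_d‖_TV ≤ 1/4` at `t = 256 n^6`, hence `t_mix(d) ≤ 256 n^6`.
-/

namespace Vale.Agent.Results.P335.KTV

open P335h14

theorem result : ∀ (n : ℕ), 4 ≤ n → ∀ d : Fin n → ℕ,
    (∀ G : Omega d, tvDist d (256 * n ^ 6) G ≤ 1 / 4) ∧ tmix d ≤ 256 * n ^ 6 := by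
  intro n hn d
  have h : ∀ G : Omega d, tvDist d (256 * n ^ 6) G ≤ 1 / 4 := fun G => P335h19.ktv_mixing hn d G
  exact ⟨h, Nat.sInf_le h⟩

end Vale.Agent.Results.P335.KTV
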