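import Vale.Agent.Lib.P335_helper14.Split

/-!
P335 (Kannan-Tetali-Vempala conjecture, simple graphs).
Rapid mixing of the switch chain for EVERY split degree sequence:
`t_mix(d) ≤ n^6` whenever `d` is the degree sequence of a split graph on `n ≥ 4` vertices.
-/

namespace Vale.Agent.Results.P335.SplitSequences

open P335h14

theorem result : ∀ (n : ℕ), 4 ≤ n → ∀ d : Fin n → ℕ, IsSplitSeq d →
    (∀ G : Omega d, tvDist d (n ^ 6) G ≤ 1 / 4) ∧ tmix d ≤ n ^ 6 := by
  intro n hn d hd
  have h : ∀ G : Omega d, tvDist d (n ^ 6) G ≤ 1 / 4 := fun G => split_mixing hn d hd G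
  exact ⟨h, Nat.sInf_le h⟩

end Vale.Agent.Results.P335.SplitSequences
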